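import Vale.Agent.P273.H630.VertIn

/-!
# P273, ASY0 (T3e): the coefficients `a = af0 ε c`, `∑ c = 0`, at the centres

`‖a 0 + a 1 * ctr k‖ ≤ A (‖c k‖ + ‖ε k‖ ‖c‖)`, and the sizes of `a` at the class `ξ`.
-/

noncomputable section

namespace Vale.Agent.P273.H26

open Finset Complex Metric Set
open Vale.Agent.P273.H95 (ctr IsCl)
open Vale.Agent.P273.H562 (rootsL bt xe)
open Vale.Agent.P273.H803 (BaseOk)
open Vale.Agent.P273.H630
open Vale.Agent.P273.H517 (Sm ps hn)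

theorem norm_ctr_diff_le (k l : Fin 3) : ‖ctr k - ctr l‖ ≤ 4 := by
  have h1 : ctr k - ctr l = ((2 * ((k : ℕ) - (l : ℕ) : ℝ) : ℝ) : ℂ) := by
    unfold H95.ctr; push_cast; ring
  rw [h1, Complex.norm_real, Real.norm_eq_abs]
  fin_cases k <;> fin_cases l <;> norm_num

/-- the two other square roots are at most `5` at the centre -/
theorem one_le_ps {ε : E3} (hs : Sm ε) {k l : Fin 3} (hl : l ≠ k) : 1 ≤ 5 * ‖ps ctr ε l (ctr k)‖ := by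
  have hc : ctr k ≠ ctr l := by
    intro h
    have := sep_ctr k l (fun h => hl h.symm)
    rw [h, sub_self, norm_zero] at this
    linarith
  have hεl : ‖ε l‖ < (1 / 128) ^ 2 := hs l
  have h1 := norm_ctr_diff_le k l
  have h2 : (ctr k - ctr l) ^ 2 - ε l ≠ 0 := by
    intro h
    have h3 : (ctr k - ctr l) ^ 2 = ε l := sub_eq_zero.1 h
    have h4 := sep_ctr k l (fun h => hl h.symm)
    have h5 : ‖ctr k - ctr l‖ ^ 2 < (1 / 128) ^ 2 := by rw [← norm_pow, h3]; exact hεl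
    nlinarith
  have h6 := norm_ps_sq hc h2
  have h7 : ‖(ctr k - ctr l) ^ 2 - ε l‖ ≤ 17 := by
    refine (norm_sub_le _ _).trans ?_
    rw [norm_pow]
    nlinarith [norm_nonneg (ctr k - ctr l)]
  have h8 := norm_nonneg (ps ctr ε l (ctr k))
  by_contra h9
  push Not at h9
  have h10 : ‖ps ctr ε l (ctr k)‖ ^ 2 < 1 / 25 := by nlinarith
  have h11 := norm_nonneg ((ctr k - ctr l) ^ 2 - ε l)
  nlinarith [sq_nonneg (‖ps ctr ε l (ctr k)‖)]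

/-- **the coefficients at the centres** -/
theorem exists_ctr_bound : ∃ A : ℝ, 0 ≤ A ∧ ∀ (ε c : E3), ‖ε‖ < I0.rad →
    ‖af0 ε c‖ ≤ A * ‖c‖ ∧
    (∑ l, c l = 0 → ∀ k, ‖af0 ε c 0 + af0 ε c 1 * ctr k‖ ≤ A * (‖c k‖ + ‖ε k‖ * ‖c‖)) := by
  obtain ⟨A, hA0, hA⟩ := exists_Gf_sub sep_ctr ell0
  have hB0 : 0 ≤ I0.bd := by linarith [I0.one_le_bd]
  refine ⟨I0.bd + 25 * (1 + A), by positivity, fun ε c hε => ⟨?_, fun hc k => ?_⟩⟩
  · refine ((af0 ε).le_opNorm c).trans (mul_le_mul_of_nonneg_right ?_ (norm_nonneg _))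
    exact (I0.norm_af_le hε.le).trans (by linarith)
  have hs : Sm ε := sm_of_rad sep_ctr ell0 hε.le
  have h1 := (hA k ε 0 c hε (by rw [norm_zero]; norm_num)).2 hc
  rw [norm_zero, zero_add] at h1
  have h2 : Gf sep_ctr ell0 k (ε, 0) c =
      (af0 ε c 0 + af0 ε c 1 * ctr k) * ∏ l ∈ univ.erase k, ps ctr ε l (ctr k) := by
    rw [Gf_apply, Fin.sum_univ_two]
    simp only [hn, add_zero, Fin.val_zero, Fin.val_one, pow_zero, pow_one, one_mul]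
    show af0 ε c 0 * _ + af0 ε c 1 * _ = _
    ring
  have h3 : ‖Gf sep_ctr ell0 k (ε, 0) c‖ ≤ ‖c k‖ + A * ‖ε k‖ * ‖c‖ := by
    have := norm_add_le (c k) (Gf sep_ctr ell0 k (ε, 0) c - c k)
    rw [add_sub_cancel] at this
    linarith
  rw [h2, norm_mul, norm_prod] at h3
  have h4 : 1 ≤ 25 * ∏ l ∈ univ.erase k, ‖ps ctr ε l (ctr k)‖ := by
    have h5 : ∏ l ∈ univ.erase k, (1 : ℝ) ≤ ∏ l ∈ univ.erase k, (5 * ‖ps ctr ε l (ctr k)‖) :=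
      prod_le_prod (fun _ _ => by norm_num) fun l hl => one_le_ps hs (ne_of_mem_erase hl)
    rw [prod_const_one, prod_mul_distrib, prod_const, card_erase_of_mem (mem_univ k), card_univ,
      Fintype.card_fin] at h5
    norm_num at h5
    exact h5
  set P := ∏ l ∈ univ.erase k, ‖ps ctr ε l (ctr k)‖ with hP
  set a := ‖af0 ε c 0 + af0 ε c 1 * ctr k‖ with ha
  have ha0 : 0 ≤ a := norm_nonneg _
  have h6 : a ≤ 25 * (a * P) := by nlinarith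
  have h7 := norm_nonneg (c k)
  have h8 : 0 ≤ ‖ε k‖ * ‖c‖ := by positivity
  have h9 : a ≤ 25 * (1 + A) * (‖c k‖ + ‖ε k‖ * ‖c‖) := by
    have : 25 * (‖c k‖ + A * ‖ε k‖ * ‖c‖) ≤ 25 * (1 + A) * (‖c k‖ + ‖ε k‖ * ‖c‖) := by
      nlinarith [mul_nonneg hA0 h7]
    linarith
  have h10 : 0 ≤ I0.bd * (‖c k‖ + ‖ε k‖ * ‖c‖) := by positivity
  linarith

/-- the coefficients of the class `ξ` -/
def aL (ξ : Fin 6 → ℝ) (y α : Fin 3 → ℝ) : E2 := af0 (eps0 y α) (cc ξ y α)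

/-- **sizes of the coefficients** -/
theorem exists_aL : ∃ K N₀ : ℝ, 1 ≤ K ∧ 1 ≤ N₀ ∧ ∀ y α, BaseOk N₀ y α → ∀ ξ, IsCl ξ →
    ‖aL ξ y α‖ ≤ K * ‖ξ‖ ∧
    (∀ k, ‖aL ξ y α 0 + aL ξ y α 1 * ctr k‖ ≤ K * (|bt ξ k| + ‖ξ‖ / y k)) ∧
    ((∀ k, bt ξ k = 0) → ‖aL ξ y α‖ ≤ K * H562.ww ξ y) := by
  obtain ⟨C, N₀, hC1, hN1, hC⟩ := exists_cc
  obtain ⟨A, hA0, hA⟩ := exists_ctr_bound
  refine ⟨1 + 2 * (A * C), N₀, by nlinarith [mul_nonneg hA0 (by linarith : (0 : ℝ) ≤ C)], hN1,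
    fun y α hy ξ hξ => ?_⟩
  obtain ⟨⟨e1, -, e3, -⟩, hcc⟩ := hC y α hy
  obtain ⟨c1, c2, c3, c4⟩ := hcc ξ hξ
  obtain ⟨b1, b2⟩ := hA (eps0 y α) (cc ξ y α) e1
  have hypos : ∀ k, 0 < y k := fun k => by linarith [hy.1 k]
  have hnξ := norm_nonneg ξ
  have hC0 : 0 ≤ C := by linarith
  refine ⟨?_, fun k => ?_, fun hb => ?_⟩
  · refine b1.trans ?_
    have := mul_le_mul_of_nonneg_left c2 hA0
    nlinarith [mul_nonneg hA0 (mul_nonneg hC0 hnξ)]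
  · refine (b2 c1 k).trans ?_
    have h3 := c3 k
    have h4 : ‖eps0 y α k‖ * ‖cc ξ y α‖ ≤ 1 / y k * (C * ‖ξ‖) := by
      have := e3 k
      have := one_div_nonneg.2 (hypos k).le
      gcongr
    have h5 : 1 / y k * (C * ‖ξ‖) = C * (‖ξ‖ / y k) := by ring
    have h6 : 0 ≤ ‖ξ‖ / y k := div_nonneg hnξ (hypos k).le
    have h7 := abs_nonneg (bt ξ k)
    calc A * (‖cc ξ y α k‖ + ‖eps0 y α k‖ * ‖cc ξ y α‖)
        ≤ A * (C * (|bt ξ k| + ‖ξ‖ / y k) + C * (‖ξ‖ / y k)) :=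
          mul_le_mul_of_nonneg_left (by linarith) hA0
      _ ≤ (1 + 2 * (A * C)) * (|bt ξ k| + ‖ξ‖ / y k) := by
          nlinarith [mul_nonneg (mul_nonneg hA0 hC0) h7, mul_nonneg (mul_nonneg hA0 hC0) h6]
  · refine b1.trans ?_
    have h1 := mul_le_mul_of_nonneg_left (c4 hb) hA0
    have hww0 : 0 ≤ H562.ww ξ y :=
      Finset.sum_nonneg fun k _ => div_nonneg (abs_nonneg _) (hypos k).le
    nlinarith [mul_nonneg hA0 (mul_nonneg hC0 hww0)]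

end Vale.Agent.P273.H26
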